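import Vale.Agent.P147.Core
import Vale.Agent.P147.Red
import Vale.Agent.P147.Red2
import Vale.Agent.P147.Ex
import Vale.Agent.P147.Vel

namespace Vale.Agent.Results.P147.OneVelocity

open MeasureTheory Vale.Agent.P147

theorem result (d : ℕ) (hd : 3 ≤ d) (μ : Measure (U d → ℝ)) [IsProbabilityMeasure μ]
    (hμ : Elliptic μ) :
    (∃ P, IsAnnealed μ P) ∧ ∀ P, IsAnnealed μ P →
      (∀ l : Fin d → ℝ, P (Esc l ∩ Thin l) = 0 ∨ P (Esc (-l) ∩ Thin (-l)) = 0) ∧
      (∀ l : Fin d → ℝ, P (Ballistic l) = 0 ∨ P (Ballistic (-l)) = 0) ∧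
      (∀ v w : Fin d → ℝ, v ≠ 0 → w ≠ 0 → P (Vel v) ≠ 0 → P (Vel w) ≠ 0 → v = w) := by
  have hd0 : 0 < d := by omega
  refine ⟨exists_annealed hμ, fun P hP => ?_⟩
  have h1 : ∀ l : Fin d → ℝ, P (Esc l ∩ Thin l) = 0 ∨ P (Esc (-l) ∩ Thin (-l)) = 0 := by
    intro v
    by_contra hc
    obtain ⟨ha, hb⟩ := not_or.1 hc
    obtain ⟨l, hl, hl'⟩ := red2 hd0 hμ hP v ha hb
    obtain ⟨K, a, ha0, hK⟩ := red hd0 hμ hP l hl
    obtain ⟨K', a', ha0', hK'⟩ := red hd0 hμ hP (-l) hl'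
    refine core hd hμ l (max K K') (a := min a a') ?_ (fun lam => ?_) (fun lam => ?_)
    · rcases min_choice a a' with h | h <;> rw [h] <;> assumption
    · exact (min_le_left _ _).trans ((hK lam).trans (mass_mono _ fun s hs =>
        ⟨hs.1.mono (le_max_left _ _), hs.2⟩))
    · exact (min_le_right _ _).trans ((hK' lam).trans (mass_mono _ fun s hs =>
        ⟨hs.1.mono (le_max_right _ _), hs.2⟩))
  have h2 : ∀ l : Fin d → ℝ, P (Ballistic l) = 0 ∨ P (Ballistic (-l)) = 0 := fun l =>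
    (h1 l).imp (fun h => measure_mono_null (ballistic_subset l) h)
      (fun h => measure_mono_null (ballistic_subset (-l)) h)
  exact ⟨h1, h2, fun v w hv hw a b => vel_eq hd0 hμ hP h2 v w hv hw a b⟩

end Vale.Agent.Results.P147.OneVelocity
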